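import Vale.Agent.P245.Bdl.B2

/-! # P245: a finite log-Sobolev constant depending only on the dimension and the size of the
support (perturbation of the strongly log-concave case) -/

set_option linter.all false

open MeasureTheory Real Set Filter Topology
open scoped ENNReal ContDiff

namespace Vale.Agent.P245.H857

open LS E1

variable {n : ℕ} {ρ : (Fin n → ℝ) → ℝ} {R : ℝ}

theorem mul_log_ge {m c : ℝ} (hm : 0 ≤ m) (hc : 0 < c) : m * log c + m - c ≤ m * log m := by
  rcases hm.eq_or_lt with h | h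
  · rw [← h]; simp only [zero_mul, zero_add]; linarith only [hc]
  · have h1 := log_le_sub_one_of_pos (div_pos hc h)
    rw [log_div hc.ne' h.ne'] at h1
    have h2 := mul_le_mul_of_nonneg_left h1 h.le
    have e : m * (c / m - 1) = c - m := by field_simp
    rw [e] at h2
    linarith only [h2]

/-- `Ent_μ(f²) ≤ e (n R² + 1) ∫ |∇f|²` for a log-concave law in the cube of side `2R` -/
theorem dl_csupp (hρ : LCd ρ) [IsProbabilityMeasure (mu ρ)] (h : CSupp (mu ρ) R) :
    DL (mu ρ) (exp 1 * (n * R ^ 2 + 1)) 0 := by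
  intro F hF
  obtain ⟨hF2, R', c', hc'⟩ := hF
  obtain ⟨μ, hμ⟩ : ∃ μ, μ = mu ρ := ⟨_, rfl⟩
  have hprob : IsProbabilityMeasure μ := by rw [hμ]; infer_instance
  obtain ⟨q, hq⟩ : ∃ q : ℝ, q = n * R ^ 2 + 1 := ⟨_, rfl⟩
  have hq1 : 1 ≤ q := by
    have : 0 ≤ (n : ℝ) * R ^ 2 := by positivity
    rw [hq]; linarith only [this]
  have hq0 : 0 < q := by linarith only [hq1]
  obtain ⟨t, ht⟩ : ∃ t : ℝ, t = 2 / q := ⟨_, rfl⟩
  have ht0 : 0 < t := by rw [ht]; positivity
  have h' : CSupp μ R := by rw [hμ]; exact h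
  have key := lsi_post hρ h hF2 hc' (t, 0) ht0
  rw [← hμ] at key ⊢
  obtain ⟨G, hG⟩ : ∃ G : (Fin n → ℝ) → ℝ, G = fun x => F x ^ 2 := ⟨_, rfl⟩
  obtain ⟨W, hW⟩ : ∃ W : (Fin n → ℝ) → ℝ, W = fun x => exp (-(t / 2 * ∑ i, x i ^ 2)) := ⟨_, rfl⟩
  have hlx : ∀ x : Fin n → ℝ, exp (lx x (t, 0)) = W x := by
    intro x
    rw [hW]
    unfold lx
    simp
  have hG0 : ∀ x, 0 ≤ G x := fun x => by rw [hG]; exact sq_nonneg _
  have hF0 : Continuous F := hF2.continuous
  have hF1 : ContDiff ℝ 1 F := hF2.of_le (by norm_num)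
  have hGc : Continuous G := by rw [hG]; exact hF0.pow 2
  have hWc : Continuous W := by rw [hW]; fun_prop
  have hW0 : ∀ x, 0 < W x := fun x => by rw [hW]; exact exp_pos _
  have hW1 : ∀ x, W x ≤ 1 := fun x => by
    rw [hW]
    apply exp_le_one_iff.2
    have : 0 ≤ t / 2 * ∑ i, x i ^ 2 :=
      mul_nonneg (by positivity) (Finset.sum_nonneg fun i _ => sq_nonneg _)
    linarith only [this]
  have hWe : ∀ᵐ x ∂μ, 1 ≤ exp 1 * W x := by
    filter_upwards [h'.supp] with x hx
    rw [hW]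
    simp only
    rw [← exp_add]
    apply one_le_exp
    have h1 : ∑ i, x i ^ 2 ≤ n * R ^ 2 := by
      have h2 : ∑ i, x i ^ 2 ≤ ∑ _i : Fin n, R ^ 2 := Finset.sum_le_sum fun i _ => by
        rw [← sq_abs]; exact pow_le_pow_left₀ (abs_nonneg _) (hx i) 2
      simpa using h2
    have h3 : t / 2 * ∑ i, x i ^ 2 ≤ t / 2 * q :=
      mul_le_mul_of_nonneg_left (by rw [hq]; linarith only [h1]) (by positivity)
    have h4 : t / 2 * q = 1 := by rw [ht]; field_simp
    linarith only [h3, h4]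
  have hZf : ∀ g : (Fin n → ℝ) → ℝ, Zf μ g (t, 0) = ∫ x, g x * W x ∂μ := by
    intro g
    unfold Zf
    exact integral_congr_ae (Eventually.of_forall fun x => by simp only [hlx])
  have hGl : Continuous fun x => G x * log (G x) := Real.continuous_mul_log.comp hGc
  have hA : ∀ {g : (Fin n → ℝ) → ℝ}, Continuous g → Integrable g μ := fun hg =>
    (Adm.of_continuous h' hg).integrable
  -- the right hand side
  have hpdc : ∀ i, Continuous fun x => pd F i x ^ 2 := fun i => (continuous_pd hF1 i).pow 2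
  have hR1 : Zf μ (fun x => ∑ i, pd F i x ^ 2) (t, 0) ≤ ∑ i, ∫ x, pd F i x ^ 2 ∂μ := by
    rw [hZf, ← integral_finsetSum _ fun i _ => hA (hpdc i)]
    refine integral_mono (hA ((continuous_finset_sum _ fun i _ => hpdc i).mul hWc))
      (hA (continuous_finset_sum _ fun i _ => hpdc i)) fun x => ?_
    exact mul_le_of_le_one_right (Finset.sum_nonneg fun i _ => sq_nonneg _) (hW1 x)
  have hS0 : 0 ≤ ∑ i, ∫ x, pd F i x ^ 2 ∂μ :=
    Finset.sum_nonneg fun i _ => integral_nonneg fun x => sq_nonneg _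
  obtain ⟨m, hm⟩ : ∃ m, m = ∫ x, G x ∂μ := ⟨_, rfl⟩
  have hm0 : 0 ≤ m := by rw [hm]; exact integral_nonneg hG0
  have hent : ent μ (fun x => F x ^ 2) = ∫ x, G x * log (G x) ∂μ - m * log m := by
    unfold ent; rw [hm, hG]
  rw [hent, zero_mul, add_zero]
  have hZG0 : 0 ≤ Zf μ G (t, 0) := by
    rw [hZf]; exact integral_nonneg fun x => mul_nonneg (hG0 x) (hW0 x).le
  have hZ1 : 0 < Zo μ (t, 0) := Zo_pos h' _
  have hcoef : 0 ≤ exp 1 * q := by positivity
  rcases hZG0.eq_or_lt with hz | hz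
  · -- `G = 0` almost everywhere
    have h1 : ∫ x, G x * W x ∂μ = 0 := by rw [← hZf]; exact hz.symm
    have h2 := (integral_eq_zero_iff_of_nonneg (fun x => mul_nonneg (hG0 x) (hW0 x).le)
      (hA (hGc.mul hWc))).1 h1
    have h3 : ∀ᵐ x ∂μ, G x = 0 := by
      filter_upwards [h2] with x hx
      have h4 : G x * W x = 0 := hx
      rcases mul_eq_zero.1 h4 with h5 | h5
      · exact h5
      · exact absurd h5 (hW0 x).ne'
    have h4 : ∫ x, G x * log (G x) ∂μ = 0 := by
      rw [integral_congr_ae (g := fun _ => (0 : ℝ)) (by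
        filter_upwards [h3] with x hx
        rw [hx, zero_mul])]
      simp
    have h5 : m = 0 := by
      rw [hm, integral_congr_ae (g := fun _ => (0 : ℝ)) h3]
      simp
    rw [h4, h5, zero_mul, sub_zero, ← hq]
    exact mul_nonneg hcoef hS0
  · obtain ⟨c, hc⟩ : ∃ c, c = Mf μ G (t, 0) := ⟨_, rfl⟩
    have hc0 : 0 < c := by rw [hc]; exact div_pos hz hZ1
    have hcZ : c * Zo μ (t, 0) = Zf μ G (t, 0) := by
      rw [hc, Mf]; field_simp
    have k1 := mul_log_ge hm0 hc0
    obtain ⟨φ, hφ⟩ : ∃ φ : (Fin n → ℝ) → ℝ, φ = fun x => G x * log (G x)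
      - (log c + 1) * G x + c := ⟨_, rfl⟩
    have hφ0 : ∀ x, 0 ≤ φ x := fun x => by
      rw [hφ]
      have := mul_log_ge (hG0 x) hc0
      show 0 ≤ G x * log (G x) - (log c + 1) * G x + c
      linarith only [this]
    have hφc : Continuous φ := by
      rw [hφ]; exact (hGl.sub (continuous_const.mul hGc)).add continuous_const
    have e1 : ∫ x, φ x ∂μ = ∫ x, G x * log (G x) ∂μ - (log c + 1) * m + c := by
      rw [hφ]
      show ∫ x, (G x * log (G x) - (log c + 1) * G x + c) ∂μ = _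
      rw [integral_add (f := fun x => G x * log (G x) - (log c + 1) * G x)
        (hA (hGl.sub (continuous_const.mul hGc))) (integrable_const c),
        integral_sub (g := fun x => (log c + 1) * G x) (hA hGl) (hA (continuous_const.mul hGc)),
        integral_const_mul, ← hm]
      simp
    have e2 : ∫ x, φ x * W x ∂μ = Zf μ (fun x => G x * log (G x)) (t, 0)
        - (log c + 1) * Zf μ G (t, 0) + c * Zo μ (t, 0) := by
      have e3 : (fun x => φ x * W x) = fun x => G x * log (G x) * W x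
          - (log c + 1) * (G x * W x) + c * W x := by
        funext x; rw [hφ]; ring
      have e4 : Zo μ (t, 0) = ∫ x, W x ∂μ := by
        unfold Zo; rw [hZf]; simp
      rw [e3, integral_add (f := fun x => G x * log (G x) * W x - (log c + 1) * (G x * W x))
        (g := fun x => c * W x)
        ((hA (hGl.mul hWc)).sub (hA (continuous_const.mul (hGc.mul hWc))))
        (hA (continuous_const.mul hWc)), integral_sub (f := fun x => G x * log (G x) * W x)
        (g := fun x => (log c + 1) * (G x * W x))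
        (hA (hGl.mul hWc)) (hA (continuous_const.mul (hGc.mul hWc))), integral_const_mul, integral_const_mul, e4,
        hZf, hZf]
    have k2 : ∫ x, φ x ∂μ ≤ exp 1 * ∫ x, φ x * W x ∂μ := by
      rw [← integral_const_mul]
      refine integral_mono_ae (hA hφc) (hA (continuous_const.mul (hφc.mul hWc))) ?_
      filter_upwards [hWe] with x hx
      have := mul_le_mul_of_nonneg_left hx (hφ0 x)
      show φ x ≤ exp 1 * (φ x * W x)
      linarith only [this]
    rw [e1, e2, hcZ] at k2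
    have key' : Zf μ (fun x => G x * log (G x)) (t, 0) - Zf μ G (t, 0) * log c
        ≤ 2 / t * Zf μ (fun x => ∑ i, pd F i x ^ 2) (t, 0) := by
      rw [hc, hG]; exact key
    have e5 : 2 / t = q := by rw [ht]; field_simp
    rw [e5] at key'
    have k3 : q * Zf μ (fun x => ∑ i, pd F i x ^ 2) (t, 0) ≤ q * ∑ i, ∫ x, pd F i x ^ 2 ∂μ :=
      mul_le_mul_of_nonneg_left hR1 hq0.le
    have k4 : exp 1 * (Zf μ (fun x => G x * log (G x)) (t, 0) - (log c + 1) * Zf μ G (t, 0)
        + Zf μ G (t, 0)) ≤ exp 1 * (q * ∑ i, ∫ x, pd F i x ^ 2 ∂μ) :=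
      mul_le_mul_of_nonneg_left (by linarith only [key', k3]) (exp_pos 1).le
    rw [← hq]
    linarith only [k1, k2, k4]

/-- the bound in the form `DB` -/
theorem db_csupp (hρ : LCd ρ) [IsProbabilityMeasure (mu ρ)] (h : CSupp (mu ρ) R) :
    DB (mu ρ) (n * R ^ 2 + 1) 0 := by
  have h1 := dl_csupp hρ h
  have h0 : 0 ≤ (n : ℝ) * R ^ 2 + 1 := by positivity
  refine (thH2 n (mu ρ) R _ 0 h h0 le_rfl).2 fun g hg => (h1 g hg).trans ?_
  have h2 : exp 1 ≤ 4 := by
    have := Real.exp_one_lt_d9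
    linarith only [this]
  have h3 : 0 ≤ ∑ i, ∫ x, pd g i x ^ 2 ∂(mu ρ) :=
    Finset.sum_nonneg fun i _ => integral_nonneg fun x => sq_nonneg _
  have h4 : exp 1 * (n * R ^ 2 + 1) * ∑ i, ∫ x, pd g i x ^ 2 ∂(mu ρ)
      ≤ 4 * (n * R ^ 2 + 1) * ∑ i, ∫ x, pd g i x ^ 2 ∂(mu ρ) :=
    mul_le_mul_of_nonneg_right (mul_le_mul_of_nonneg_right h2 h0) h3
  linarith only [h4]

/-- all levels -/
theorem dbl_csupp (hρ : LCd ρ) [IsProbabilityMeasure (mu ρ)] (h : CSupp (mu ρ) R) {r κ : ℝ}
    (hr : 0 < r) (hκ : n * R ^ 2 + 1 + r / 2 ≤ κ) : DBL (mu ρ) r κ 0 := by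
  have h0 : 0 ≤ (n : ℝ) * R ^ 2 + 1 := by positivity
  have h1 := (thLv n ρ R hρ inferInstance h r _ 0 hr h0).1 (db_csupp hρ h)
  intro N hN hN1
  refine (h1 N hN hN1).trans ?_
  have h2 : 0 ≤ FI (mu ρ) r N := by
    rw [(thCo n (mu ρ) r N hN).1.1]
    exact ((thCo n (mu ρ) r N hN).2.1 (sN N) (sN N) (fun i => hN.div (hN.sb.pd i))
      (fun i => hN.div (hN.sb.pd i))).1
  have h3 := mul_le_mul_of_nonneg_right hκ h2
  linarith only [h3]

end Vale.Agent.P245.H857
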