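import Vale.Agent.P245.H857.Fin0

/-! # P245: near-maximisers at the critical constant of a window of levels -/

set_option linter.all false

open MeasureTheory Real Set Filter Topology
open scoped ENNReal ContDiff

namespace Vale.Agent.P245.H857

open LS E1

variable {n : ℕ} {ρ0 : (Fin n → ℝ) → ℝ} {R : ℝ}

theorem FI_nonneg {μ : Measure (Fin n → ℝ)} [IsProbabilityMeasure μ] {r : ℝ}
    {N : (Fin n → ℝ) → ℝ} (hN : Pos N) : 0 ≤ FI μ r N := by
  rw [(thCo n μ r N hN).1.1]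
  exact ((thCo n μ r N hN).2.1 (sN N) (sN N) (fun i => hN.div (hN.sb.pd i))
    (fun i => hN.div (hN.sb.pd i))).1

/-- going up from the level `s` to the level `T` -/
theorem up_level (hρ : LCd ρ0) (hprob : IsProbabilityMeasure (mu ρ0)) (hcs : CSupp (mu ρ0) R)
    {N : (Fin n → ℝ) → ℝ} {s T : ℝ} (hN : Pos N) (hs : 0 < s) (hsT : s ≤ T) :
    FI (mu ρ0) T (UL (mu ρ0) s T N) ≤ FI (mu ρ0) s N ∧
    HE (mu ρ0) T (UL (mu ρ0) s T N) ≤ HE (mu ρ0) s N ∧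
    HE (mu ρ0) s N - (T - s) / 2 * FI (mu ρ0) s N ≤ HE (mu ρ0) T (UL (mu ρ0) s T N) := by
  have := hprob
  obtain ⟨μ, hμ⟩ : ∃ μ, μ = mu ρ0 := ⟨_, rfl⟩
  obtain ⟨cH, cJ, dH, dJ, -⟩ := thU' n (mu ρ0) R hcs N s T hN hs hsT
  have hKs : UL (mu ρ0) s s N = N := (thK n (mu ρ0) R hcs).2.1 s N hs
  have hpos : ∀ v ∈ Icc s T, Pos (UL (mu ρ0) s v N) := fun v hv =>
    (((thR' n (mu ρ0) R hcs).2.2 s v hs hv.1).2 N hN).1
  have hss : s ∈ Icc s T := ⟨le_rfl, hsT⟩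
  have hTT : T ∈ Icc s T := ⟨hsT, le_rfl⟩
  have hJanti : ∀ v ∈ Icc s T, FI (mu ρ0) v (UL (mu ρ0) s v N) ≤ FI (mu ρ0) s N := by
    have h1 := mono_of_deriv (f := fun v => -FI (mu ρ0) v (UL (mu ρ0) s v N))
      (f' := fun v => GA (mu ρ0) v (UL (mu ρ0) s v N)
        + 2 * BI (mu ρ0) v (UL (mu ρ0) s v N) (sN (UL (mu ρ0) s v N)) (sN (UL (mu ρ0) s v N)))
      (a := s) (b := T) cJ.neg (fun v hv => ((dJ v hv).neg).congr_deriv (by ring))
      (fun v hv => by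
        have hv' : v ∈ Icc s T := ⟨hv.1.le, hv.2.le⟩
        have hp := hpos v hv'
        have hsb : ∀ i, SB (sN (UL (mu ρ0) s v N) i) := fun i => hp.div (hp.sb.pd i)
        have h2 : 0 ≤ GA (mu ρ0) v (UL (mu ρ0) s v N) := by
          rw [(thCo n (mu ρ0) v _ hp).1.2]
          exact ((thCo n (mu ρ0) v _ hp).2.1 _ _ hsb hsb).2.1
        have h3 := (thP n ρ0 R hρ hprob hcs v (UL (mu ρ0) s v N) _ _ (hs.trans hv.1) hp hsb
          hsb).1
        show 0 ≤ GA (mu ρ0) v (UL (mu ρ0) s v N) + 2 * BI (mu ρ0) v (UL (mu ρ0) s v N)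
          (sN (UL (mu ρ0) s v N)) (sN (UL (mu ρ0) s v N))
        linarith only [h2, h3])
    intro v hv
    have h2 := h1 hss hv hv.1
    simp only [hKs] at h2
    linarith only [h2]
  refine ⟨hJanti T hTT, ?_, ?_⟩
  · have h1 := mono_of_deriv (f := fun v => -HE (mu ρ0) v (UL (mu ρ0) s v N))
      (f' := fun v => 1 / 2 * FI (mu ρ0) v (UL (mu ρ0) s v N))
      (a := s) (b := T) cH.neg (fun v hv => ((dH v hv).neg).congr_deriv (by ring))
      (fun v hv => by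
        have := FI_nonneg (μ := mu ρ0) (r := v) (hpos v ⟨hv.1.le, hv.2.le⟩)
        positivity)
    have h2 := h1 hss hTT hsT
    simp only [hKs] at h2
    linarith only [h2]
  · have h1 := mono_of_deriv (f := fun v => HE (mu ρ0) v (UL (mu ρ0) s v N)
        + FI (mu ρ0) s N / 2 * v)
      (f' := fun v => -(1 / 2) * FI (mu ρ0) v (UL (mu ρ0) s v N) + FI (mu ρ0) s N / 2)
      (a := s) (b := T) (cH.add (continuousOn_const.mul continuousOn_id))
      (fun v hv => ((dH v hv).add ((hasDerivAt_id v).const_mul _)).congr_deriv (by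
        simp only [mul_one])) (fun v hv => by
        have := hJanti v ⟨hv.1.le, hv.2.le⟩
        linarith only [this])
    have h2 := h1 hss hTT hsT
    simp only [hKs] at h2
    linarith only [h2]

/-- the inequality on the window of `κ` -/
def SW (μ : Measure (Fin n → ℝ)) (S0 κ : ℝ) : Prop :=
  ∀ ρ ∈ Icc (2 * (κ / S0)) (3 * (κ / S0)), DBL μ ρ κ 0

/-- from one level of the window to the level `0` -/
theorem db_of_level (hρ : LCd ρ0) (hprob : IsProbabilityMeasure (mu ρ0)) (hcs : CSupp (mu ρ0) R)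
    {S0 κ : ℝ} (hS : 2000 ≤ S0) (hκ : 0 < κ) (h : DBL (mu ρ0) (2 * (κ / S0)) κ 0) :
    DB (mu ρ0) (2 * κ) 0 := by
  have hS0 : 0 < S0 := by linarith only [hS]
  have hr : 0 < 2 * (κ / S0) := by positivity
  have h1 := (thLv n ρ0 R hρ hprob hcs _ κ 0 hr hκ.le).2 h
  intro f hf hf1
  refine (h1 f hf hf1).trans ?_
  have h2 : κ / S0 ≤ κ := div_le_self hκ.le (by linarith only [hS])
  have h3 : 0 ≤ FI (mu ρ0) 0 f := by
    unfold FI EY PH
    refine integral_nonneg fun x => integral_nonneg fun z => ?_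
    obtain ⟨ε, hε, hfε⟩ := hf.lb
    exact div_nonneg (Finset.sum_nonneg fun i _ => sq_nonneg _) (hε.le.trans (hfε _))
  have h4 : (κ + 2 * (κ / S0) / 2) * FI (mu ρ0) 0 f ≤ 2 * κ * FI (mu ρ0) 0 f :=
    mul_le_mul_of_nonneg_right (by linarith only [h2]) h3
  linarith only [h4]

/-- near-maximisers over the window at the critical constant -/
theorem near_max (hρ : LCd ρ0) (hprob : IsProbabilityMeasure (mu ρ0)) (hcs : CSupp (mu ρ0) R)
    {S0 τ κ1 : ℝ} (hS : 2000 ≤ S0) (hτ : 0 < τ) (hκ1 : 0 < κ1)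
    (hneg : ∀ κ, 0 < κ → κ ≤ κ1 → ¬ SW (mu ρ0) S0 κ) :
    ∃ (κ σ : ℝ) (N : (Fin n → ℝ) → ℝ), κ1 ≤ κ ∧ SW (mu ρ0) S0 κ ∧
      σ ∈ Icc (2 * (κ / S0)) (3 * (κ / S0)) ∧ Pos N ∧ EY (mu ρ0) σ N = 1 ∧
      0 < FI (mu ρ0) σ N ∧ κ * FI (mu ρ0) σ N - τ * FI (mu ρ0) σ N ≤ HE (mu ρ0) σ N ∧
      HE (mu ρ0) σ N ≤ κ * FI (mu ρ0) σ N := by
  have := hprob
  have hS0 : 0 < S0 := by linarith only [hS]
  -- the critical constant
  obtain ⟨A, hA⟩ : ∃ A : Set ℝ, A = {κ | 0 < κ ∧ SW (mu ρ0) S0 κ} := ⟨_, rfl⟩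
  have hne : A.Nonempty := by
    refine ⟨2 * (n * R ^ 2 + 1), ?_⟩
    rw [hA]
    have h0 : 0 < (n : ℝ) * R ^ 2 + 1 := by positivity
    refine ⟨by positivity, fun r hr => ?_⟩
    have h1 : 0 < 2 * (2 * ((n : ℝ) * R ^ 2 + 1) / S0) := by positivity
    refine dbl_csupp hρ hcs (h1.trans_le hr.1) ?_
    have h2 : 2 * ((n : ℝ) * R ^ 2 + 1) / S0 ≤ ((n : ℝ) * R ^ 2 + 1) / 2 := by
      rw [div_le_div_iff₀ hS0 two_pos]
      have : ((n : ℝ) * R ^ 2 + 1) * 2000 ≤ ((n : ℝ) * R ^ 2 + 1) * S0 :=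
        mul_le_mul_of_nonneg_left hS h0.le
      linarith only [this, h0]
    linarith only [hr.2, h2, h0]
  have hbd : BddBelow A := ⟨0, fun x hx => by rw [hA] at hx; exact hx.1.le⟩
  have hAl : ∀ x ∈ A, κ1 ≤ x := by
    intro x hx
    rw [hA] at hx
    by_contra hc
    exact hneg x hx.1 (not_le.1 hc).le hx.2
  obtain ⟨K, hK⟩ : ∃ K, K = sInf A := ⟨_, rfl⟩
  have hKκ : κ1 ≤ K := by rw [hK]; exact le_csInf hne hAl
  have hK0 : 0 < K := hκ1.trans_le hKκ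
  -- the precision
  obtain ⟨t, ht⟩ : ∃ t : ℝ, t = min (1 / 10) (τ / (6 * K)) := ⟨_, rfl⟩
  have ht0 : 0 < t := by rw [ht]; positivity
  have ht1 : t ≤ 1 / 10 := by rw [ht]; exact min_le_left _ _
  have ht2 : 6 * (t * K) ≤ τ := by
    have h1 : t ≤ τ / (6 * K) := by rw [ht]; exact min_le_right _ _
    rw [le_div_iff₀ (by positivity)] at h1
    linarith only [h1]
  have htK : 0 < t * K := mul_pos ht0 hK0
  obtain ⟨κ, hκA, hκlt⟩ := exists_lt_of_csInf_lt hne (show sInf A < K + t * K by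
    rw [← hK]; linarith only [htK])
  have hκK : K ≤ κ := by rw [hK]; exact csInf_le hbd hκA
  have hκ0 : 0 < κ := hK0.trans_le hκK
  have hSκ : SW (mu ρ0) S0 κ := by rw [hA] at hκA; exact hκA.2
  have hm0 : 0 < K - t * K := by
    have h1 : t * K ≤ 1 / 10 * K := mul_le_mul_of_nonneg_right ht1 hK0.le
    linarith only [h1, hK0]
  have hfail : ¬ SW (mu ρ0) S0 (K - t * K) := by
    intro hc
    have h1 : K - t * K ∈ A := by rw [hA]; exact ⟨hm0, hc⟩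
    have h2 := csInf_le hbd h1
    rw [← hK] at h2
    linarith only [h2, htK]
  unfold SW DBL at hfail
  push Not at hfail
  obtain ⟨r, hr, M, hM, hM1, hMlt⟩ := hfail
  have hr0 : 0 < r := lt_of_lt_of_le (by positivity) hr.1
  have hF0 : 0 ≤ FI (mu ρ0) r M := FI_nonneg hM
  obtain ⟨F, hF⟩ : ∃ F, F = FI (mu ρ0) r M := ⟨_, rfl⟩
  rw [← hF] at hMlt hF0
  rw [add_zero] at hMlt
  have hFpos : 0 < F := by
    rcases hF0.eq_or_lt with h | h
    · exfalso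
      have h1 := dbl_csupp hρ hcs hr0 (le_refl (n * R ^ 2 + 1 + r / 2)) M hM hM1
      rw [← hF, ← h, mul_zero, zero_add] at h1
      rw [← h, mul_zero] at hMlt
      linarith only [h1, hMlt]
    · exact h
  -- the level
  obtain ⟨σ, hσ⟩ : ∃ σ, σ = max r (2 * (κ / S0)) := ⟨_, rfl⟩
  have hrσ : r ≤ σ := by rw [hσ]; exact le_max_left _ _
  have hle : (K - t * K) / S0 ≤ κ / S0 := by
    apply div_le_div_of_nonneg_right _ hS0.le
    linarith only [hκK, htK]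
  have hσI : σ ∈ Icc (2 * (κ / S0)) (3 * (κ / S0)) := by
    refine ⟨by rw [hσ]; exact le_max_right _ _, ?_⟩
    rw [hσ]
    have h1 : 0 < κ / S0 := by positivity
    exact max_le (hr.2.trans (by linarith only [hle])) (by linarith only [h1])
  have hσr : σ - r ≤ 2 * (t * K) := by
    have h1 : κ / S0 - (K - t * K) / S0 ≤ t * K := by
      rw [← sub_div, div_le_iff₀ hS0]
      have h2 : t * K * 2000 ≤ t * K * S0 := mul_le_mul_of_nonneg_left hS htK.le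
      linarith only [hκlt, h2, htK, hK]
    have h2 : σ ≤ r + 2 * (t * K) := by
      rw [hσ]
      exact max_le (by linarith only [htK]) (by linarith only [h1, hr.1])
    linarith only [h2]
  obtain ⟨u1, u2, u3⟩ := up_level hρ hprob hcs hM hr0 hrσ
  obtain ⟨N, hN⟩ : ∃ N, N = UL (mu ρ0) r σ M := ⟨_, rfl⟩
  have hNpos : Pos N := by
    rw [hN]; exact (((thR' n (mu ρ0) R hcs).2.2 r σ hr0 hrσ).2 M hM).1
  have hN1 : EY (mu ρ0) σ N = 1 := by
    rw [hN, ← hM1]; exact (thPr n (mu ρ0) R hcs M r σ hM hr0 hrσ).1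
  rw [← hN, ← hF] at u1 u3
  have hF' : 0 ≤ FI (mu ρ0) σ N := FI_nonneg hNpos
  have hup := hSκ σ hσI N hNpos hN1
  rw [add_zero] at hup
  have hHlow : (K - 2 * (t * K)) * F ≤ HE (mu ρ0) σ N := by
    have h1 : (σ - r) / 2 * F ≤ t * K * F :=
      mul_le_mul_of_nonneg_right (by linarith only [hσr]) hF0
    have e : (K - 2 * (t * K)) * F = (K - t * K) * F - t * K * F := by ring
    linarith only [u3, h1, e, hMlt]
  have hcoef : 0 < K - 2 * (t * K) := by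
    have h1 : t * K ≤ 1 / 10 * K := mul_le_mul_of_nonneg_right ht1 hK0.le
    linarith only [h1, hK0]
  have hHpos : 0 < HE (mu ρ0) σ N := (mul_pos hcoef hFpos).trans_le hHlow
  have hFN : 0 < FI (mu ρ0) σ N := by
    by_contra hc
    have h1 : FI (mu ρ0) σ N = 0 := le_antisymm (not_lt.1 hc) hF'
    rw [h1, mul_zero] at hup
    linarith only [hup, hHpos]
  refine ⟨κ, σ, N, hKκ.trans hκK, hSκ, hσI, hNpos, hN1, hFN, ?_, hup⟩
  have h1 : (K - 2 * (t * K)) * FI (mu ρ0) σ N ≤ (K - 2 * (t * K)) * F :=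
    mul_le_mul_of_nonneg_left u1 hcoef.le
  have h2 : (κ - τ) * FI (mu ρ0) σ N ≤ (K - 2 * (t * K)) * FI (mu ρ0) σ N := by
    apply mul_le_mul_of_nonneg_right _ hF'
    linarith only [ht2, hκlt, htK, hK]
  linarith only [h1, h2, hHlow]

/-- PREP: near-maximisers over the window, with unpredictable score -/
theorem prep (hρ : LCd ρ0) (hprob : IsProbabilityMeasure (mu ρ0)) (hcs : CSupp (mu ρ0) R)
    (hexp : ExpM (mu ρ0) 1) {S0 L τ κ1 : ℝ} (hS : 2000 ≤ S0) (hL : 1 ≤ L) (hτ : 0 < τ)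
    (hτ1 : τ ≤ 1) (hκ1 : 10 ^ 4 ≤ κ1)
    (hneg : ∀ κ, 0 < κ → κ ≤ κ1 → ¬ SW (mu ρ0) S0 κ) :
    ∃ (κ σ : ℝ) (N : (Fin n → ℝ) → ℝ), κ1 ≤ κ ∧ SW (mu ρ0) S0 κ ∧
      DBS (mu ρ0) (2 * (κ / S0)) (κ / S0) κ 0 ∧
      σ ∈ Icc (2 * (κ / S0)) (3 * (κ / S0)) ∧ Pos N ∧ EY (mu ρ0) σ N = 1 ∧
      0 < FI (mu ρ0) σ N ∧ κ * FI (mu ρ0) σ N - τ * FI (mu ρ0) σ N ≤ HE (mu ρ0) σ N ∧
      HE (mu ρ0) σ N ≤ κ * FI (mu ρ0) σ N ∧
      Pred (mu ρ0) σ N (sN N) (L * (κ * FI (mu ρ0) σ N))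
        ((800 * S0 ^ 2 * (1 + L) + 4000) / κ * FI (mu ρ0) σ N) := by
  have := hprob
  have hS0 : 0 < S0 := by linarith only [hS]
  obtain ⟨κ, σ, N, hκ1κ, hSW, hσ, hN, hN1, hF0, hnear, hup⟩ := near_max hρ hprob hcs hS hτ
    (by linarith only [hκ1]) hneg
  have hκ : 10 ^ 4 ≤ κ := hκ1.trans hκ1κ
  have hκ0 : 0 < κ := by linarith only [hκ]
  have hDBS : DBS (mu ρ0) (2 * (κ / S0)) (κ / S0) κ 0 := fun r hr =>
    hSW r ⟨hr.1, hr.2.trans (le_of_eq (by ring))⟩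
  refine ⟨κ, σ, N, hκ1κ, hSW, hDBS, hσ, hN, hN1, hF0, hnear, hup, ?_⟩
  obtain ⟨F, hF⟩ : ∃ F, F = FI (mu ρ0) σ N := ⟨_, rfl⟩
  obtain ⟨δ, hδ⟩ : ∃ δ, δ = κ / S0 := ⟨_, rfl⟩
  rw [← hδ] at hDBS hσ
  have hδ0 : 0 < δ := by rw [hδ]; positivity
  have hδκ : 2000 * δ ≤ κ := by
    rw [hδ, ← mul_div_assoc, div_le_iff₀ hS0]
    have := mul_le_mul_of_nonneg_left hS hκ0.le
    linarith only [this]
  have hF0' : 0 < F := by rw [hF]; exact hF0
  obtain ⟨α, hα⟩ : ∃ α, α = τ * F := ⟨_, rfl⟩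
  have hα0 : 0 ≤ α := by rw [hα]; positivity
  have hα4 : 10 ^ 4 * α ≤ κ * FI (mu ρ0) σ N := by
    rw [← hF, hα]
    have h1 : τ * F ≤ 1 * F := mul_le_mul_of_nonneg_right hτ1 hF0'.le
    have h2 : 10 ^ 4 * F ≤ κ * F := mul_le_mul_of_nonneg_right hκ hF0'.le
    linarith only [h1, h2]
  have hnear' : (0 : ℝ) - α ≤ HE (mu ρ0) σ N - κ * FI (mu ρ0) σ N := by
    rw [← hF] at hnear ⊢
    rw [hα]
    linarith only [hnear]
  have hx : 2 * δ * FI (mu ρ0) σ N ≤ L * (κ * F) := by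
    rw [← hF]
    have h1 : 1 * (κ * F) ≤ L * (κ * F) := mul_le_mul_of_nonneg_right hL (by positivity)
    have h2 : 2 * δ * F ≤ κ * F := mul_le_mul_of_nonneg_right (by linarith only [hδκ, hδ0]) hF0'.le
    linarith only [h1, h2]
  have hscore : ∀ i, SB (sN N i) := fun i => hN.div (hN.sb.pd i)
  obtain ⟨⟨hFI, -⟩, -, hch⟩ := thCo n (mu ρ0) σ N hN
  have hch' := hch hN1
  have hPred0 : ∀ x, Pred (mu ρ0) σ N (sN N) x F := by
    intro x l hl _
    have h1 := ((hch' l hl).2 (sN N) hscore).2.1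
    rw [hF]
    rwa [← hFI] at h1
  have hB : StBoot n := boot_of n (thK n) (thR' n) (thT' n) (thCo n) (thRv n)
    (thG0' n) (thU' n) (thDn' n) (thP n) (thPathA' n)
  obtain ⟨H, hH⟩ : ∃ H, H = HE (mu ρ0) σ N := ⟨_, rfl⟩
  have hH0 : 0 ≤ H := by
    rw [← hF] at hnear
    have h1 : τ * F ≤ 1 * F := mul_le_mul_of_nonneg_right hτ1 hF0'.le
    have h2 : 10 ^ 4 * F ≤ κ * F := mul_le_mul_of_nonneg_right hκ hF0'.le
    rw [hH]
    linarith only [hnear, h1, h2, hF0']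
  obtain ⟨A0, hA0⟩ : ∃ A0, A0 = 400 / δ ^ 2 * (H + L * (κ * F) + log 1) + 2000 * α / κ :=
    ⟨_, rfl⟩
  have hlog : log (1 : ℝ) = 0 := log_one
  have hA0pos : 0 ≤ A0 := by rw [hA0, hlog, add_zero]; positivity
  have hstep : ∀ X, 0 ≤ X → X ≤ F → Pred (mu ρ0) σ N (sN N) (L * (κ * F)) X →
      Pred (mu ρ0) σ N (sN N) (L * (κ * F)) (A0 + X / 2) := by
    intro X hX0 hXF hPX l hl hI
    have h1 := hB ρ0 R 1 hρ hprob hcs le_rfl hexp N δ κ σ α (L * (κ * F)) X 0 hδ0 hδκ hDBS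
      hσ hN hN1 hα0 hα4 hnear' hx hX0 (by rw [← hF]; exact hXF) hPX l hl hI
    rw [hA0, hH]
    exact h1
  have hclose : Pred (mu ρ0) σ N (sN N) (L * (κ * F)) (2 * A0) := by
    have key := contraction_close
      (ι := {l : (Fin n → ℝ) → (Fin n → ℝ) → ℝ // Ch l ∧ Inf (mu ρ0) σ N l ≤ L * (κ * F)})
      (P := fun l => Co (mu ρ0) σ N (sN N) l.1) (A := A0) (N0 := F)
      (fun l => hPred0 _ l.1 l.2.1 l.2.2) hF0'.le
      (fun X hX0 hX l => by
        rcases le_total X F with hXF | hXF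
        · exact hstep X hX0 hXF (fun l' hl' hI' => hX ⟨l', hl', hI'⟩) l.1 l.2.1 l.2.2
        · have h1 := hstep F hF0'.le le_rfl (hPred0 _) l.1 l.2.1 l.2.2
          linarith only [hXF, h1])
      hA0pos
    intro l hl hI
    exact key ⟨l, hl, hI⟩
  rw [← hF]
  intro l hl hI
  refine (hclose l hl hI).trans ?_
  have e1 : 400 / δ ^ 2 * (κ * F + L * (κ * F)) = 400 * S0 ^ 2 * (1 + L) / κ * F := by
    rw [hδ]; field_simp
  have h1 : 400 / δ ^ 2 * (H + L * (κ * F)) ≤ 400 / δ ^ 2 * (κ * F + L * (κ * F)) := by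
    apply mul_le_mul_of_nonneg_left _ (by positivity)
    rw [hH]
    rw [← hF] at hup
    linarith only [hup]
  have h2 : 2000 * α / κ ≤ 2000 / κ * F := by
    rw [hα]
    have h3 : τ * F ≤ 1 * F := mul_le_mul_of_nonneg_right hτ1 hF0'.le
    have e2 : 2000 * (τ * F) / κ = 2000 / κ * (τ * F) := by ring
    rw [e2]
    exact mul_le_mul_of_nonneg_left (by linarith only [h3]) (by positivity)
  have e3 : (800 * S0 ^ 2 * (1 + L) + 4000) / κ * F
      = 2 * (400 * S0 ^ 2 * (1 + L) / κ * F + 2000 / κ * F) := by ring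
  rw [hA0, hlog, add_zero, e3]
  linarith only [h1, h2, e1]

end Vale.Agent.P245.H857
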